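import Vale.Agent.P245.Bdl.B2

/-!
P245, row KER (helper888): the kernel lemma in the `UL` language.

For `0 < s ≤ r`, `N` positive with bounded derivatives, `N' = UL μ s r N`:
* `mgf_post`: the posterior of `X₀` at level `r` is `r`-subgaussian;
* `ker_lin`: linear form of the lower bound of the pointwise relative entropy
  `UL (N log N) / N' - log N'`;
* `ker_pt`: `(r-s)/2 |sN N'|² + s/2 |mm|² ≤` that relative entropy;
* `ker_avg`: the averaged form;
* `ker_up`: `HE μ s N - HE μ r N' ≤ (r-s)/2 FI μ s N`.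
-/

open MeasureTheory Real Set Filter Topology
open scoped ENNReal ContDiff

namespace Vale.Agent.P245.H888

open LS LS.Down E1

variable {n : ℕ}

section line

/-- derivative along a segment in the space variable -/
theorem hasDerivAt_line {F : ℝ × (Fin n → ℝ) → ℝ} (hF : Differentiable ℝ F) (c : ℝ)
    (q a : Fin n → ℝ) (τ : ℝ) :
    HasDerivAt (fun τ : ℝ => F (c, q + τ • a)) (∑ i, a i * dI i F (c, q + τ • a)) τ := by
  have h1 : HasDerivAt (fun τ : ℝ => ((c, q + τ • a) : ℝ × (Fin n → ℝ))) ((0 : ℝ), a) τ := by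
    refine HasDerivAt.prodMk (hasDerivAt_const τ c) ?_
    have h2 := ((hasDerivAt_id τ).smul_const a).const_add q
    rw [one_smul] at h2
    exact h2
  have h2 := (hF (c, q + τ • a)).hasFDerivAt.comp_hasDerivAt τ h1
  have e := fderiv_expand F (c, q + τ • a) 0 a
  rw [zero_mul, zero_add] at e
  rw [e] at h2
  exact h2

end line

section mgf

variable {μ : Measure (Fin n → ℝ)} [IsProbabilityMeasure μ] {R : ℝ}

theorem Mf_lin (h : CSupp μ R) (a : Fin n → ℝ) (p : ℝ × (Fin n → ℝ)) :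
    Mf μ (fun x => ∑ i, a i * x i) p = ∑ i, a i * Mf μ (fun x => x i) p := by
  rw [Mf_sum h Finset.univ fun i _ => (h.adm_coord i).const_mul (a i)]
  exact Finset.sum_congr rfl fun i _ => Mf_const_mul _ _ _

omit [IsProbabilityMeasure μ] in
theorem Mf_exp_eq (a : Fin n → ℝ) (p : ℝ × (Fin n → ℝ)) :
    Mf μ (fun x => exp (∑ i, a i * x i)) p = Zo μ (p.1, p.2 + a) / Zo μ p := by
  unfold Mf
  congr 1
  unfold Zo Zf
  congr 1
  funext x
  rw [one_mul, ← exp_add]
  congr 1
  unfold lx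
  simp only [Pi.add_apply, add_mul, Finset.sum_add_distrib]
  ring

/-- the posterior at `p` is `K`-subgaussian as soon as the posteriors have covariance `≤ K` -/
theorem log_Mf_exp_le (h : CSupp μ R) (a : Fin n → ℝ) (p : ℝ × (Fin n → ℝ)) {K : ℝ}
    (hK : ∀ q : Fin n → ℝ, Vf μ (fun x => ∑ i, a i * x i) (p.1, q) ≤ K) :
    log (Mf μ (fun x => exp (∑ i, a i * x i)) p)
      ≤ ∑ i, a i * Mf μ (fun x => x i) p + K / 2 := by
  have hZd : Differentiable ℝ (Zo μ) := (contDiff_Zo h 1).differentiable (by norm_num)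
  have hMd : Differentiable ℝ (Mf μ fun x => ∑ i, a i * x i) :=
    (contDiff_Mf h (Adm.lin h a) 1).differentiable (by norm_num)
  set m : ℝ → ℝ := fun τ => Mf μ (fun x => ∑ i, a i * x i) (p.1, p.2 + τ • a) with hm
  have hφ : ∀ τ : ℝ, HasDerivAt (fun τ : ℝ => log (Zo μ (p.1, p.2 + τ • a))) (m τ) τ := by
    intro τ
    have h1 := (hasDerivAt_line hZd p.1 p.2 a τ).log (Zo_pos h _).ne'
    have e : (∑ i, a i * dI i (Zo μ) (p.1, p.2 + τ • a)) / Zo μ (p.1, p.2 + τ • a) = m τ := by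
      rw [hm]
      simp only
      rw [Mf_lin h, div_eq_iff (Zo_pos h _).ne', Finset.sum_mul]
      refine Finset.sum_congr rfl fun i _ => ?_
      rw [dI_Zo h]
      ring
    rw [e] at h1
    exact h1
  have hmd : ∀ τ : ℝ, HasDerivAt m (Vf μ (fun x => ∑ i, a i * x i) (p.1, p.2 + τ • a)) τ := by
    intro τ
    have h1 := hasDerivAt_line hMd p.1 p.2 a τ
    have e : (∑ i, a i * dI i (Mf μ fun x => ∑ i, a i * x i) (p.1, p.2 + τ • a))
        = Vf μ (fun x => ∑ i, a i * x i) (p.1, p.2 + τ • a) := by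
      simp only [dI_Mf' h (Adm.lin h a)]
      rw [← Cf_lin h (Adm.lin h a), Cf_self]
    rw [e] at h1
    exact h1
  -- first step
  have s1 : ∀ τ ∈ Icc (0 : ℝ) 1, m τ ≤ m 0 + τ * K := by
    intro τ hτ
    have hmono := mono_of_deriv (f := fun t => t * K - m t)
      (f' := fun t => K - Vf μ (fun x => ∑ i, a i * x i) (p.1, p.2 + t • a)) (a := 0) (b := 1)
      (fun t _ => (((hasDerivAt_id t).mul_const K).sub (hmd t)).continuousAt.continuousWithinAt)
      (fun t _ => by
        have := ((hasDerivAt_id t).mul_const K).sub (hmd t)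
        rw [one_mul] at this
        exact this)
      (fun t _ => sub_nonneg.2 (hK _))
    have := hmono ⟨le_rfl, zero_le_one⟩ hτ hτ.1
    simp only [zero_mul, zero_sub] at this
    linarith
  have s2 := mono_of_deriv (f := fun t => t * m 0 + K / 2 * t ^ 2 - log (Zo μ (p.1, p.2 + t • a)))
      (f' := fun t => m 0 + K * t - m t) (a := 0) (b := 1)
      (fun t _ => by
        have h1 := ((((hasDerivAt_id t).mul_const (m 0)).add
          (((hasDerivAt_id t).pow 2).const_mul (K / 2))).sub (hφ t))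
        exact h1.continuousAt.continuousWithinAt)
      (fun t _ => by
        have h1 := ((((hasDerivAt_id t).mul_const (m 0)).add
          (((hasDerivAt_id t).pow 2).const_mul (K / 2))).sub (hφ t))
        refine h1.congr_deriv ?_
        simp only [id, Nat.cast_ofNat]
        ring)
      (fun t ht => by
        have := s1 t ⟨ht.1.le, ht.2.le⟩
        linarith)
  have s3 := s2 ⟨le_rfl, zero_le_one⟩ ⟨zero_le_one, le_rfl⟩ zero_le_one
  simp only [zero_mul, zero_smul, add_zero, one_mul, one_smul, one_pow, mul_one] at s3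
  rw [Mf_exp_eq, log_div (Zo_pos h _).ne' (Zo_pos h _).ne']
  have e0 : m 0 = ∑ i, a i * Mf μ (fun x => x i) p := by
    rw [hm]
    simp only [zero_smul, add_zero]
    rw [Mf_lin h]
  rw [← e0]
  have e1 : ((p.1, p.2) : ℝ × (Fin n → ℝ)) = p := rfl
  rw [e1] at s3
  have e2 : K / 2 * (0 : ℝ) ^ 2 = 0 := by norm_num
  rw [e2] at s3
  linarith

end mgf

/-- **KER (K3)**: the posterior of `X₀` at level `r` is `r`-subgaussian -/
theorem mgf_post {ρ : (Fin n → ℝ) → ℝ} [IsProbabilityMeasure (mu ρ)] {R : ℝ} (hρ : LCd ρ)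
    (h : CSupp (mu ρ) R) {r : ℝ} (hr : 0 < r) (y a : Fin n → ℝ) :
    log (Mf (mu ρ) (fun x => exp (∑ i, a i * x i)) (1 / r, (1 / r) • y))
      ≤ ∑ i, a i * XB (mu ρ) r i y + r / 2 * ∑ i, a i ^ 2 := by
  have h1 := log_Mf_exp_le h a (1 / r, (1 / r) • y) (K := r * ∑ i, a i ^ 2) (fun q => by
    have := UpA.c5' hρ h (p := (1 / r, q)) (by simpa using hr) a
    simpa using this)
  have e : r * (∑ i, a i ^ 2) / 2 = r / 2 * ∑ i, a i ^ 2 := by ring
  rw [e] at h1
  exact h1

section lin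

variable {μ : Measure (Fin n → ℝ)} [IsProbabilityMeasure μ] {R : ℝ}

/-- the pointwise inequality, before averaging over `X₀` -/
theorem phi_ent_ge {N : (Fin n → ℝ) → ℝ} (hN : Pos N) {s r : ℝ} (hs : 0 < s) (hsr : s < r)
    (x y b : Fin n → ℝ) (L : ℝ) :
    (L + 1) * phi s N x r y + s * (1 - s / r) * ∑ i, b i * phi s (pd N i) x r y
        - exp L * exp (s * (1 - s / r) / 2 * ∑ i, b i ^ 2)
      ≤ phi s (fun y => N y * log (N y)) x r y := by
  have hr : 0 < r := hs.trans hsr
  set u := s * (1 - s / r) with hu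
  have hu0 : 0 ≤ u := by
    have : s / r ≤ 1 := (div_le_one hr).2 hsr.le
    exact mul_nonneg hs.le (by linarith)
  set c : Fin n → ℝ := (1 - s / r) • x + (s / r) • y with hc
  obtain ⟨C, hC⟩ := hN.sb.bdd
  obtain ⟨ε, hε, hlb⟩ := hN.lb
  have hNm : Measurable N := hN.sb.measurable
  have hNl : SB fun y => N y * log (N y) := hN.sb.mul hN.log
  obtain ⟨C', hC'⟩ := hNl.bdd
  unfold phi
  rw [← hu, ← hc]
  -- integrals
  have i1 : Integrable (fun z => N (c + √u • z) * log (N (c + √u • z))) (gsn n) :=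
    PH_integrable hNl.measurable hC' u c
  have i2 : Integrable (fun z => N (c + √u • z)) (gsn n) := PH_integrable hNm hC u c
  have i3 : ∀ i, Integrable (fun z => z i * N (c + √u • z)) (gsn n) := fun i =>
    integrable_coord_mul (sb_cbd hN.sb) (by fun_prop) i
  have i4 : Integrable (fun z : Fin n → ℝ => exp (∑ i, (√u * b i) * z i)) (gsn n) := by
    refine (EG1.integrable ?_ (by fun_prop : Continuous fun z : Fin n → ℝ =>
      exp (∑ i, (√u * b i) * z i)).aestronglyMeasurable)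
    refine ⟨1 + ∑ i, |√u * b i|, by positivity, fun z => ?_⟩
    rw [abs_of_pos (exp_pos _)]
    have hS : 0 ≤ ∑ i, |z i| := Finset.sum_nonneg fun i _ => abs_nonneg _
    have hT : 0 ≤ ∑ i, |√u * b i| := Finset.sum_nonneg fun i _ => abs_nonneg _
    have h1 : ∑ i, (√u * b i) * z i ≤ (1 + ∑ i, |√u * b i|) * ∑ i, |z i| := by
      calc ∑ i, (√u * b i) * z i ≤ ∑ i, (∑ j, |√u * b j|) * |z i| := by
            refine Finset.sum_le_sum fun i _ => ?_
            calc (√u * b i) * z i ≤ |(√u * b i) * z i| := le_abs_self _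
              _ = |√u * b i| * |z i| := abs_mul _ _
              _ ≤ _ := mul_le_mul_of_nonneg_right
                  (Finset.single_le_sum (f := fun j => |√u * b j|) (fun j _ => abs_nonneg _)
                    (Finset.mem_univ i)) (abs_nonneg _)
        _ = (∑ j, |√u * b j|) * ∑ i, |z i| := by rw [Finset.mul_sum]
        _ ≤ _ := by nlinarith
    calc exp (∑ i, (√u * b i) * z i) ≤ 1 * exp ((1 + ∑ i, |√u * b i|) * ∑ i, |z i|) := by
          rw [one_mul]; exact exp_le_exp.2 h1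
      _ ≤ _ := mul_le_mul_of_nonneg_right (by linarith) (exp_pos _).le
  have e4 : ∫ z : Fin n → ℝ, exp (∑ i, (√u * b i) * z i) ∂(gsn n)
      = exp (u / 2 * ∑ i, b i ^ 2) := by
    rw [integral_gam_exp]
    congr 1
    simp only [mul_pow, sq_sqrt hu0]
    rw [← Finset.mul_sum]
    ring
  have hp : ∀ z : Fin n → ℝ,
      (L + 1) * N (c + √u • z) + ∑ i, (√u * b i) * (z i * N (c + √u • z))
        - exp L * exp (∑ i, (√u * b i) * z i) ≤ N (c + √u • z) * log (N (c + √u • z)) := by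
    intro z
    have h1 := xlogx_tangent (x := N (c + √u • z)) (m := exp (L + ∑ i, (√u * b i) * z i))
      (hN.pos _) (exp_pos _)
    rw [log_exp] at h1
    have e : ∑ i, (√u * b i) * (z i * N (c + √u • z))
        = (∑ i, (√u * b i) * z i) * N (c + √u • z) := by
      rw [Finset.sum_mul]
      exact Finset.sum_congr rfl fun i _ => by ring
    rw [e, ← exp_add]
    nlinarith [h1]
  have j1 : Integrable (fun z => (L + 1) * N (c + √u • z)) (gsn n) := i2.const_mul (L + 1)
  have j2 : Integrable (fun z : Fin n → ℝ => ∑ i, (√u * b i) * (z i * N (c + √u • z))) (gsn n) :=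
    integrable_finsetSum Finset.univ fun i _ => (i3 i).const_mul (√u * b i)
  have j12 : Integrable (fun z : Fin n → ℝ =>
      (L + 1) * N (c + √u • z) + ∑ i, (√u * b i) * (z i * N (c + √u • z))) (gsn n) := j1.add j2
  have j3 : Integrable (fun z : Fin n → ℝ => exp L * exp (∑ i, (√u * b i) * z i)) (gsn n) :=
    i4.const_mul (exp L)
  have j4 : Integrable (fun z : Fin n → ℝ =>
      (L + 1) * N (c + √u • z) + ∑ i, (√u * b i) * (z i * N (c + √u • z))
        - exp L * exp (∑ i, (√u * b i) * z i)) (gsn n) := j12.sub j3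
  have h5 : ∫ z : Fin n → ℝ, ((L + 1) * N (c + √u • z) + ∑ i, (√u * b i) * (z i * N (c + √u • z))
        - exp L * exp (∑ i, (√u * b i) * z i)) ∂(gsn n)
      ≤ ∫ z, N (c + √u • z) * log (N (c + √u • z)) ∂(gsn n) := integral_mono j4 i1 hp
  rw [integral_sub j12 j3, integral_add j1 j2, integral_const_mul, integral_const_mul, e4,
    integral_finsetSum _ fun i _ => (i3 i).const_mul (√u * b i)] at h5
  have e5 : ∀ i, ∫ z, (√u * b i) * (z i * N (c + √u • z)) ∂(gsn n)
      = u * (b i * PH u (pd N i) c) := by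
    intro i
    rw [integral_const_mul, ibp (sb_diff hN.sb) (sb_cbd hN.sb) i (sb_cbd (hN.sb.pd i)) c (√u)]
    unfold PH
    have : √u * √u = u := mul_self_sqrt hu0
    linear_combination (b i * ∫ z, pd N i (c + √u • z) ∂(gsn n)) * this
  simp only [e5] at h5
  rw [← Finset.mul_sum] at h5
  exact h5

/-- abstract form of the linear lower bound -/
theorem ker_lin_gen (h : CSupp μ R) {N : (Fin n → ℝ) → ℝ} (hN : Pos N) {s r : ℝ} (hs : 0 < s)
    (hsr : s < r) (y a b : Fin n → ℝ) :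
    ∑ i, a i * (dx μ s r N i y + XB μ r i y) + s * (1 - s / r) * ∑ i, b i * us μ s r N i y
        - log (Mf μ (fun x => exp (∑ i, a i * x i)) (1 / r, (1 / r) • y))
        - s * (1 - s / r) / 2 * ∑ i, b i ^ 2
      ≤ UL μ s r (fun y => N y * log (N y)) y / UL μ s r N y - log (UL μ s r N y) := by
  have hr : 0 < r := hs.trans hsr
  set u := s * (1 - s / r) with hu
  set p : ℝ × (Fin n → ℝ) := (1 / r, (1 / r) • y) with hp
  have hUP : Pos (UL μ s r N) := ((thR' n μ R h).2.2 s r hs hsr.le).2 N hN |>.1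
  have hA : 0 < UL μ s r N y := hUP.pos y
  set A := UL μ s r N y with hAdef
  have hZ1 : 0 < Mf μ (fun x => exp (∑ i, a i * x i)) p := by
    rw [Mf_exp_eq]; exact div_pos (Zo_pos h _) (Zo_pos h _)
  set Z1 := Mf μ (fun x => exp (∑ i, a i * x i)) p with hZ1def
  set G := exp (u / 2 * ∑ i, b i ^ 2) with hG
  have hGp : 0 < G := exp_pos _
  have hNl : SB fun y => N y * log (N y) := hN.sb.mul hN.log
  -- pointwise inequality
  set W := A / (Z1 * G) with hW
  have hWp : 0 < W := div_pos hA (mul_pos hZ1 hGp)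
  have hpt : ∀ x : Fin n → ℝ,
      (log W + 1) * (1 * phi s N x r y) + (∑ i, a i * (x i * phi s N x r y))
        + u * (∑ i, b i * (1 * phi s (pd N i) x r y))
        - (W * G) * exp (∑ i, a i * x i) ≤ 1 * phi s (fun y => N y * log (N y)) x r y := by
    intro x
    have h1 := phi_ent_ge hN hs hsr x y b (log W + ∑ i, a i * x i)
    rw [exp_add, exp_log hWp] at h1
    have e : ∑ i, a i * (x i * phi s N x r y) = (∑ i, a i * x i) * phi s N x r y := by
      rw [Finset.sum_mul]; exact Finset.sum_congr rfl fun i _ => by ring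
    rw [e]
    simp only [one_mul]
    rw [← hu, ← hG] at h1
    linarith
  -- admissibility
  have aN : ∀ {f : (Fin n → ℝ) → ℝ}, SB f → Adm μ (fun x => phi s f x r y) := fun hf =>
    Adm.of_continuous h (cont_phi_x (sb_cbd hf) s y)
  have a1 : Adm μ (fun x => 1 * phi s N x r y) := (aN hN.sb).const_mul 1
  have a2 : ∀ i, Adm μ (fun x => x i * phi s N x r y) := fun i =>
    (h.adm_coord i).mul (aN hN.sb)
  have a3 : ∀ i, Adm μ (fun x => 1 * phi s (pd N i) x r y) := fun i =>
    (aN (hN.sb.pd i)).const_mul 1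
  have a4 : Adm μ (fun x => exp (∑ i, a i * x i)) := Adm.of_continuous h (by fun_prop)
  have a5 : Adm μ (fun x => 1 * phi s (fun y => N y * log (N y)) x r y) := (aN hNl).const_mul 1
  have b2 : Adm μ (fun x => ∑ i, a i * (x i * phi s N x r y)) :=
    Adm.sum _ fun i _ => (a2 i).const_mul (a i)
  have b3 : Adm μ (fun x => ∑ i, b i * (1 * phi s (pd N i) x r y)) :=
    Adm.sum _ fun i _ => (a3 i).const_mul (b i)
  have key := Mf_mono h
    ((((a1.const_mul (log W + 1)).add b2).add (b3.const_mul u)).sub (a4.const_mul (W * G))) a5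
    (Eventually.of_forall hpt) p
  rw [Mf_sub h (((a1.const_mul (log W + 1)).add b2).add (b3.const_mul u)) (a4.const_mul (W * G)),
    Mf_add h ((a1.const_mul (log W + 1)).add b2) (b3.const_mul u),
    Mf_add h (a1.const_mul (log W + 1)) b2, Mf_const_mul, Mf_const_mul, Mf_const_mul,
    Mf_sum h Finset.univ fun i _ => (a2 i).const_mul (a i),
    Mf_sum h Finset.univ fun i _ => (a3 i).const_mul (b i)] at key
  simp only [Mf_const_mul] at key
  rw [← hZ1def] at key
  have f1 : ∀ {f : (Fin n → ℝ) → ℝ}, Mf μ (fun x => 1 * phi s f x r y) p = UL μ s r f y := by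
    intro f
    rw [UL_eq_UP2 s hr, UP2_eq_Bf]
    rfl
  have f1' : ∀ {f : (Fin n → ℝ) → ℝ}, Mf μ (fun x => phi s f x r y) p = UL μ s r f y := by
    intro f
    rw [← f1]
    simp only [one_mul]
  have f2 : ∀ i, Mf μ (fun x => x i * phi s N x r y) p
      = UL μ s r (fun y => N y * XB μ s i y) y := fun i =>
    congrFun (Bf_coord_eq h hN.sb hs hsr i) y
  simp only [f1', f2, one_mul, ← hAdef] at key
  have f3 : W * G * Z1 = A := by
    rw [hW]
    have h1 := hGp.ne'
    have h2 := hZ1.ne'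
    field_simp
  rw [f3] at key
  have f4 : log W = log A - (log Z1 + u / 2 * ∑ i, b i ^ 2) := by
    rw [hW, log_div hA.ne' (mul_pos hZ1 hGp).ne', log_mul hZ1.ne' hGp.ne', hG, log_exp]
  rw [f4] at key
  have f5 : ∑ i, a i * (dx μ s r N i y + XB μ r i y)
      = (∑ i, a i * UL μ s r (fun y => N y * XB μ s i y) y) / A := by
    rw [Finset.sum_div]
    refine Finset.sum_congr rfl fun i _ => ?_
    unfold dx
    rw [← hAdef]
    ring
  have f6 : ∑ i, b i * us μ s r N i y = (∑ i, b i * UL μ s r (pd N i) y) / A := by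
    rw [Finset.sum_div]
    refine Finset.sum_congr rfl fun i _ => ?_
    unfold us
    rw [← hAdef]
    ring
  rw [f5, f6]
  have h7 := div_le_div_of_nonneg_right key hA.le
  have e7 : ∀ S1 S2 q : ℝ, ((log A - (log Z1 + q) + 1) * A + S1 + u * S2 - A) / A
      = log A - log Z1 - q + S1 / A + u * (S2 / A) := by
    intro S1 S2 q
    field_simp
    ring
  rw [e7] at h7
  linarith

end lin

section main

variable {ρ : (Fin n → ℝ) → ℝ} [IsProbabilityMeasure (mu ρ)] {R : ℝ}

/-- **KER (K1')**: linear form of the lower bound -/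
theorem ker_lin (hρ : LCd ρ) (h : CSupp (mu ρ) R) {N : (Fin n → ℝ) → ℝ} (hN : Pos N) {s r : ℝ}
    (hs : 0 < s) (hsr : s < r) (y a b : Fin n → ℝ) :
    ∑ i, a i * dx (mu ρ) s r N i y + s * (1 - s / r) * ∑ i, b i * us (mu ρ) s r N i y
        - r / 2 * ∑ i, a i ^ 2 - s * (1 - s / r) / 2 * ∑ i, b i ^ 2
      ≤ UL (mu ρ) s r (fun y => N y * log (N y)) y / UL (mu ρ) s r N y
        - log (UL (mu ρ) s r N y) := by
  have h1 := ker_lin_gen h hN hs hsr y a b
  have h2 := mgf_post hρ h (hs.trans hsr) y a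
  have e : ∑ i, a i * (dx (mu ρ) s r N i y + XB (mu ρ) r i y)
      = ∑ i, a i * dx (mu ρ) s r N i y + ∑ i, a i * XB (mu ρ) r i y := by
    rw [← Finset.sum_add_distrib]
    exact Finset.sum_congr rfl fun i _ => by ring
  rw [e] at h1
  linarith

/-- **KER (K1)**: the pointwise kernel lemma -/
theorem ker_pt (hρ : LCd ρ) (h : CSupp (mu ρ) R) {N : (Fin n → ℝ) → ℝ} (hN : Pos N) {s r : ℝ}
    (hs : 0 < s) (hsr : s ≤ r) (y : Fin n → ℝ) :
    (r - s) / 2 * ∑ i, sN (UL (mu ρ) s r N) i y ^ 2 + s / 2 * ∑ i, mm (mu ρ) s r N i y ^ 2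
      ≤ UL (mu ρ) s r (fun y => N y * log (N y)) y / UL (mu ρ) s r N y
        - log (UL (mu ρ) s r N y) := by
  rcases hsr.eq_or_lt with rfl | hlt
  · have e1 : ∀ g, UL (mu ρ) s s g = g := fun g => UL_self h hs g
    have e2 : ∀ i, mm (mu ρ) s s N i y = 0 := by
      intro i
      unfold mm us sN
      simp only [e1, sub_self]
    simp only [e2, e1]
    rw [mul_div_cancel_left₀ _ (hN.pos y).ne']
    simp
  · have hr : 0 < r := hs.trans hlt
    have hid : ∀ i, (r - s) * sN (UL (mu ρ) s r N) i y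
        = dx (mu ρ) s r N i y + s * mm (mu ρ) s r N i y := fun i =>
      (((thR' n (mu ρ) R h).2.2 s r hs hsr).2 N hN).2.2 i y
    have h1 := ker_lin hρ h hN hs hlt y (fun i => dx (mu ρ) s r N i y / r)
      (fun i => us (mu ρ) s r N i y)
    refine le_trans (le_of_eq ?_) h1
    simp only [Finset.mul_sum]
    rw [← Finset.sum_add_distrib, ← Finset.sum_add_distrib, ← Finset.sum_sub_distrib,
      ← Finset.sum_sub_distrib]
    refine Finset.sum_congr rfl fun i _ => ?_
    have hu : us (mu ρ) s r N i y = sN (UL (mu ρ) s r N) i y + mm (mu ρ) s r N i y := by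
      unfold mm; ring
    have hd : dx (mu ρ) s r N i y
        = (r - s) * sN (UL (mu ρ) s r N) i y - s * mm (mu ρ) s r N i y := by
      rw [hid i]; ring
    rw [hu, hd]
    have := hr.ne'
    field_simp
    ring

/-- the averaged pointwise entropy -/
theorem EY_ul_ent (h : CSupp (mu ρ) R) {N : (Fin n → ℝ) → ℝ} (hN : Pos N) {s r : ℝ}
    (hs : 0 < s) (hsr : s ≤ r) :
    EY (mu ρ) r (UL (mu ρ) s r fun y => N y * log (N y)) = HE (mu ρ) s N := by
  have hNl : SB fun y => N y * log (N y) := hN.sb.mul hN.log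
  have h1 := EY_UL h (SB.bm hNl) (BM.const (n := n) 1) hs hsr
  simp only [mul_one] at h1
  rw [h1]
  unfold HE
  congr 1
  funext y
  have e : PH (r - s) (fun _ : Fin n → ℝ => (1 : ℝ)) = fun _ => 1 := LS.PH_const _ _
  rw [e, mul_one]

/-- **KER (K2), lower half** -/
theorem ker_avg (hρ : LCd ρ) (h : CSupp (mu ρ) R) {N : (Fin n → ℝ) → ℝ} (hN : Pos N) {s r : ℝ}
    (hs : 0 < s) (hsr : s ≤ r) :
    (r - s) / 2 * FI (mu ρ) r (UL (mu ρ) s r N)
        + s / 2 * IP (mu ρ) r (UL (mu ρ) s r N) (mm (mu ρ) s r N) (mm (mu ρ) s r N)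
      ≤ HE (mu ρ) s N - HE (mu ρ) r (UL (mu ρ) s r N) := by
  obtain ⟨hP, hreg, hid⟩ := ((thR' n (mu ρ) R h).2.2 s r hs hsr).2 N hN
  have hUl : SB (UL (mu ρ) s r fun y => N y * log (N y)) :=
    ((thR' n (mu ρ) R h).2.2 s r hs hsr).1 _ (hN.sb.mul hN.log)
  rw [← EY_ul_ent h hN hs hsr, E1.FI_eq_IP _ _ hP]
  set N' := UL (mu ρ) s r N with hN'
  have hPl : SB fun y => N' y * log (N' y) := hP.sb.mul hP.log
  have hm : ∀ i, SB (mm (mu ρ) s r N i) := fun i => (hreg i).2.2.1
  have hg : ∀ i, SB (sN N' i) := fun i => hP.div (hP.sb.pd i)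
  have s1 : SB fun y => N' y * ∑ i, sN N' i y * sN N' i y := sb_ip hP hg hg
  have s2 : SB fun y => N' y * ∑ i, mm (mu ρ) s r N i y * mm (mu ρ) s r N i y := sb_ip hP hm hm
  have hle : ∀ y, (r - s) / 2 * (N' y * ∑ i, sN N' i y * sN N' i y)
      + s / 2 * (N' y * ∑ i, mm (mu ρ) s r N i y * mm (mu ρ) s r N i y)
      ≤ UL (mu ρ) s r (fun y => N y * log (N y)) y + (-1) * (N' y * log (N' y)) := by
    intro y
    have h1 := mul_le_mul_of_nonneg_left (ker_pt hρ h hN hs hsr y) (hP.pos y).le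
    rw [mul_sub, ← hN', mul_div_cancel₀ _ (hP.pos y).ne'] at h1
    simp only [sq] at h1
    linarith
  have key := EY_mono_bm (μ := mu ρ) (r := r) (SB.bm ((s1.const_mul _).add (s2.const_mul _)))
    (SB.bm (hUl.add (hPl.const_mul (-1)))) hle
  rw [LS.EY_add _ _ (s1.const_mul _) (s2.const_mul _), LS.EY_add _ _ hUl (hPl.const_mul (-1)),
    LS.EY_const_mul, LS.EY_const_mul, LS.EY_const_mul] at key
  unfold IP HE
  linarith

/-- the Fisher information decreases along `UL`, and the entropy loss is at most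
`(r - s)/2` times the Fisher information at the lower level -/
theorem ker_up (hρ : LCd ρ) (h : CSupp (mu ρ) R) {N : (Fin n → ℝ) → ℝ} (hN : Pos N) {s r : ℝ}
    (hs : 0 < s) (hsr : s ≤ r) :
    FI (mu ρ) r (UL (mu ρ) s r N) ≤ FI (mu ρ) s N ∧
    HE (mu ρ) s N - HE (mu ρ) r (UL (mu ρ) s r N) ≤ (r - s) / 2 * FI (mu ρ) s N := by
  obtain ⟨cH, cF, dH, dF, -⟩ := thU' n (mu ρ) R h N s r hN hs hsr
  have e0 : UL (mu ρ) s s N = N := UL_self h hs N
  have hneg : ∀ t ∈ Ioo s r, 0 ≤ GA (mu ρ) t (UL (mu ρ) s t N)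
      + 2 * BI (mu ρ) t (UL (mu ρ) s t N) (sN (UL (mu ρ) s t N)) (sN (UL (mu ρ) s t N)) := by
    intro t ht
    have hP : Pos (UL (mu ρ) s t N) := (((thR' n (mu ρ) R h).2.2 s t hs ht.1.le).2 N hN).1
    have hg : ∀ i, SB (sN (UL (mu ρ) s t N) i) := fun i => hP.div (hP.sb.pd i)
    have h1 := (thP n ρ R hρ inferInstance h t (UL (mu ρ) s t N) (sN (UL (mu ρ) s t N))
      (sN (UL (mu ρ) s t N)) (hs.trans ht.1) hP hg hg).1
    have h2 : 0 ≤ GA (mu ρ) t (UL (mu ρ) s t N) := by
      rw [E1.GA_eq_DE _ _ hP]; exact DE_nonneg hP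
    linarith
  have hFanti : ∀ t ∈ Icc s r, FI (mu ρ) t (UL (mu ρ) s t N) ≤ FI (mu ρ) s N := by
    intro t ht
    have hmono := mono_of_deriv (f := fun t => - FI (mu ρ) t (UL (mu ρ) s t N))
      (f' := fun t => (GA (mu ρ) t (UL (mu ρ) s t N)
        + 2 * BI (mu ρ) t (UL (mu ρ) s t N) (sN (UL (mu ρ) s t N)) (sN (UL (mu ρ) s t N))))
      cF.neg (fun v hv => by
        have := (dF v hv).neg
        rw [neg_neg] at this
        exact this) hneg
    have := hmono ⟨le_rfl, hsr⟩ ht ht.1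
    simp only [e0] at this
    linarith
  refine ⟨hFanti r ⟨hsr, le_rfl⟩, ?_⟩
  have hmono := mono_of_deriv
    (f := fun t => HE (mu ρ) t (UL (mu ρ) s t N) + t * (1 / 2 * FI (mu ρ) s N))
    (f' := fun t => -(1 / 2) * FI (mu ρ) t (UL (mu ρ) s t N) + 1 / 2 * FI (mu ρ) s N)
    (a := s) (b := r)
    (cH.add (continuous_id.mul continuous_const).continuousOn)
    (fun v hv => by
      have := (dH v hv).add ((hasDerivAt_id v).mul_const (1 / 2 * FI (mu ρ) s N))
      rw [one_mul] at this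
      exact this)
    (fun v hv => by
      have := hFanti v ⟨hv.1.le, hv.2.le⟩
      linarith)
  have := hmono ⟨le_rfl, hsr⟩ ⟨hsr, le_rfl⟩ hsr
  simp only [e0] at this
  linarith

/-- the mismatch is small when the Fisher information is nearly constant -/
theorem ker_mm (hρ : LCd ρ) (h : CSupp (mu ρ) R) {N : (Fin n → ℝ) → ℝ} (hN : Pos N) {s r : ℝ}
    (hs : 0 < s) (hsr : s ≤ r) :
    s * IP (mu ρ) r (UL (mu ρ) s r N) (mm (mu ρ) s r N) (mm (mu ρ) s r N)
      ≤ (r - s) * (FI (mu ρ) s N - FI (mu ρ) r (UL (mu ρ) s r N)) := by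
  have h1 := ker_avg hρ h hN hs hsr
  have h2 := (ker_up hρ h hN hs hsr).2
  linarith

end main

end Vale.Agent.P245.H888
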