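import Vale.Agent.P245.H888.Ker
import Vale.Agent.P245.H468.ChR

/-!
P245, row KER, part K4 (helper888): the kernel lemma integrated over the output of a channel.

`(W, γ)` is any output space with weight `g` (`H468.Out γ g`), `l : W → (Fin n → ℝ) → ℝ` a channel
with gradient bounds (`GCh`), `N_w = N * l w`, `N'_w = UL μ s r N_w`.
-/

open MeasureTheory Real Set Filter Topology
open scoped ENNReal ContDiff

namespace Vale.Agent.P245.H888

open LS LS.Down E1
open H468 (Out)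

variable {n : ℕ} {W : Type*} [MeasurableSpace W] {γ : Measure W} {g : W → ℝ}

/-- jointly measurable families of functions with exponential growth in the parameter -/
structure Fam (g : W → ℝ) (k : W → (Fin n → ℝ) → ℝ) : Prop where
  meas : Measurable (Function.uncurry k)
  bd : ∃ K, 0 ≤ K ∧ ∀ w y, |k w y| ≤ exp (K * g w)

section fam

variable {k k' : W → (Fin n → ℝ) → ℝ}

theorem Fam.bm (hk : Fam g k) (w : W) : BM (k w) := by
  obtain ⟨K, _, hK⟩ := hk.bd
  exact ⟨hk.meas.comp (measurable_const.prodMk measurable_id), _, hK w⟩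

theorem exp_mono_g (hg : Out γ g) {a b : ℝ} (h : a ≤ b) (w : W) :
    exp (a * g w) ≤ exp (b * g w) :=
  exp_le_exp.2 (mul_le_mul_of_nonneg_right h (hg.pos w).le)

theorem Fam.mul (hk : Fam g k) (hk' : Fam g k') : Fam g fun w y => k w y * k' w y := by
  obtain ⟨K, hK0, hK⟩ := hk.bd
  obtain ⟨L, hL0, hL⟩ := hk'.bd
  refine ⟨hk.meas.mul hk'.meas, K + L, by positivity, fun w y => ?_⟩
  rw [add_mul, exp_add]
  exact abs_mul_le_of (hK w y) (hL w y)

theorem Fam.add (hg : Out γ g) (hk : Fam g k) (hk' : Fam g k') :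
    Fam g fun w y => k w y + k' w y := by
  obtain ⟨K, hK0, hK⟩ := hk.bd
  obtain ⟨L, hL0, hL⟩ := hk'.bd
  refine ⟨hk.meas.add hk'.meas, K + L + 1, by positivity, fun w y => ?_⟩
  have h1 := exp_mono_g hg (a := K) (b := K + L) (by linarith) w
  have h2 := exp_mono_g hg (a := L) (b := K + L) (by linarith) w
  have h3 : 2 ≤ exp (g w) := by
    have := add_one_le_exp (g w)
    have := hg.one_le w
    linarith
  have h4 : exp ((K + L + 1) * g w) = exp ((K + L) * g w) * exp (g w) := by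
    rw [← exp_add]; congr 1; ring
  rw [h4]
  calc |k w y + k' w y| ≤ |k w y| + |k' w y| := abs_add_le _ _
    _ ≤ exp ((K + L) * g w) * 2 := by linarith [hK w y, hL w y]
    _ ≤ _ := mul_le_mul_of_nonneg_left h3 (exp_pos _).le

theorem Fam.of_bm (hg : Out γ g) {G : (Fin n → ℝ) → ℝ} (hG : BM G) :
    Fam g fun _ => G := by
  obtain ⟨C, hC⟩ := hG.2
  refine ⟨hG.1.comp measurable_snd, |C|, abs_nonneg _, fun w y => ?_⟩
  have h1 := add_one_le_exp (|C| * g w)
  have h2 : |C| ≤ |C| * g w := le_mul_of_one_le_right (abs_nonneg _) (hg.one_le w)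
  linarith [hC y, le_abs_self C]

theorem Fam.const_mul (hg : Out γ g) (c : ℝ) (hk : Fam g k) : Fam g fun w y => c * k w y :=
  (Fam.of_bm hg (BM.const c)).mul hk

theorem Fam.neg (hk : Fam g k) : Fam g fun w y => - k w y := by
  obtain ⟨K, hK0, hK⟩ := hk.bd
  exact ⟨hk.meas.neg, K, hK0, fun w y => by rw [abs_neg]; exact hK w y⟩

theorem Fam.sub (hg : Out γ g) (hk : Fam g k) (hk' : Fam g k') :
    Fam g fun w y => k w y - k' w y := by
  simpa only [sub_eq_add_neg] using hk.add hg hk'.neg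

theorem Fam.sum (hg : Out γ g) {ι : Type*} (s : Finset ι) {f : ι → W → (Fin n → ℝ) → ℝ}
    (h : ∀ i ∈ s, Fam g (f i)) : Fam g fun w y => ∑ i ∈ s, f i w y := by
  classical
  induction s using Finset.induction_on with
  | empty => simpa using Fam.of_bm hg (BM.const (n := n) 0)
  | insert i s hi ih =>
    simp only [Finset.sum_insert hi]
    exact (h i (Finset.mem_insert_self _ _)).add hg
      (ih fun j hj => h j (Finset.mem_insert_of_mem hj))

theorem Fam.of_ch {l : W → (Fin n → ℝ) → ℝ} (hl : H468.Ch γ g l) : Fam g l := by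
  obtain ⟨K, hK0, hK⟩ := hl.bd
  exact ⟨hl.meas, K, hK0, fun w y => by rw [abs_of_pos (hl.pos w y)]; exact (hK w y).2⟩

/-- families bounded below -/
def Lb (g : W → ℝ) (k : W → (Fin n → ℝ) → ℝ) : Prop :=
  ∃ K, 0 ≤ K ∧ ∀ w y, exp (-(K * g w)) ≤ k w y

theorem Lb.pos (h : Lb g k) (w : W) (y : Fin n → ℝ) : 0 < k w y := by
  obtain ⟨K, _, hK⟩ := h
  exact (exp_pos _).trans_le (hK w y)

theorem Fam.inv (hk : Fam g k) (h : Lb g k) : Fam g fun w y => (k w y)⁻¹ := by
  obtain ⟨K, hK0, hK⟩ := h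
  refine ⟨hk.meas.inv, K, hK0, fun w y => ?_⟩
  have h0 : 0 < k w y := (exp_pos _).trans_le (hK w y)
  rw [abs_of_pos (inv_pos.2 h0), inv_le_comm₀ h0 (exp_pos _), ← exp_neg]
  exact hK w y

theorem Fam.div (hk' : Fam g k') (hk : Fam g k) (h : Lb g k) :
    Fam g fun w y => k' w y / k w y := by
  simpa only [div_eq_mul_inv] using hk'.mul (hk.inv h)

theorem Fam.log (hk : Fam g k) (h : Lb g k) : Fam g fun w y => Real.log (k w y) := by
  obtain ⟨K, hK0, hK⟩ := h
  obtain ⟨L, hL0, hL⟩ := hk.bd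
  refine ⟨hk.meas.log, K + L, by positivity, fun w y => ?_⟩
  have h0 : 0 < k w y := (exp_pos _).trans_le (hK w y)
  have h1 := log_le_log (exp_pos _) (hK w y)
  have h2 := log_le_log h0 ((le_abs_self _).trans (hL w y))
  rw [log_exp] at h1 h2
  have h3 := add_one_le_exp ((K + L) * g w)
  have h4 : |Real.log (k w y)| ≤ |K * g w| + |L * g w| := by
    rw [abs_le]
    have a1 := neg_abs_le (L * g w)
    have a2 := le_abs_self (K * g w)
    have a3 := abs_nonneg (L * g w)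
    have a4 := abs_nonneg (K * g w)
    have a5 := le_abs_self (L * g w)
    constructor <;> linarith
  by_cases hgw : 0 ≤ g w
  · rw [abs_of_nonneg (mul_nonneg hK0 hgw), abs_of_nonneg (mul_nonneg hL0 hgw)] at h4
    linarith
  · have h5 : exp (K * g w) ≤ 1 := by
      rw [exp_le_one_iff]; exact mul_nonpos_of_nonneg_of_nonpos hK0 (not_le.1 hgw).le
    have h6 : exp (L * g w) ≤ 1 := by
      rw [exp_le_one_iff]; exact mul_nonpos_of_nonneg_of_nonpos hL0 (not_le.1 hgw).le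
    have h7 : 1 ≤ exp (-(K * g w)) := by
      rw [one_le_exp_iff]
      have := mul_nonpos_of_nonneg_of_nonpos hK0 (not_le.1 hgw).le
      linarith
    have h8 : k w y = 1 := le_antisymm ((le_abs_self _).trans ((hL w y).trans h6))
      (h7.trans (hK w y))
    rw [h8, log_one, abs_zero]
    exact (exp_pos _).le

/-! ### averages -/

variable {μ : Measure (Fin n → ℝ)} [IsProbabilityMeasure μ] {R : ℝ}

theorem Fam.EY_meas (hk : Fam g k) (r : ℝ) : Measurable fun w => EY μ r (k w) := by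
  have e : (fun w => EY μ r (k w)) = fun w => ∫ y, k w y ∂(lw μ r) := by
    funext w; exact EY_eq_lw_bm (hk.bm w)
  rw [e]
  exact hk.meas.stronglyMeasurable.integral_prod_right'.measurable

theorem Fam.EY_bd (hk : Fam g k) (r : ℝ) : ∃ K, 0 ≤ K ∧ ∀ w, |EY μ r (k w)| ≤ exp (K * g w) := by
  obtain ⟨K, hK0, hK⟩ := hk.bd
  exact ⟨K, hK0, fun w => EY_abs_le fun y => hK w y⟩

theorem integrable_of_exp (hg : Out γ g) {f : W → ℝ} (hf : Measurable f) {K : ℝ}
    (hK : ∀ w, |f w| ≤ exp (K * g w)) : Integrable f γ :=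
  (hg.int K).mono' hf.aestronglyMeasurable (Eventually.of_forall fun w => by
    rw [norm_eq_abs]; exact hK w)

theorem Fam.EY_int (hg : Out γ g) (hk : Fam g k) (r : ℝ) :
    Integrable (fun w => EY μ r (k w)) γ := by
  obtain ⟨K, _, hK⟩ := hk.EY_bd (μ := μ) r
  exact integrable_of_exp hg (hk.EY_meas r) hK

theorem Fam.PH_jm (hk : Fam g k) (u : ℝ) :
    Measurable (Function.uncurry fun w y => PH u (k w) y) := by
  have h : Measurable (fun p : (W × (Fin n → ℝ)) × (Fin n → ℝ) =>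
      k p.1.1 (p.1.2 + √u • p.2)) :=
    hk.meas.comp (Measurable.prodMk (by fun_prop) (by (clear * -; fun_prop)) :
        Measurable fun p : (W × (Fin n → ℝ)) × (Fin n → ℝ) => (p.1.1, p.1.2 + √u • p.2))
  exact (h.stronglyMeasurable.integral_prod_right' (ν := gsn n)).measurable

theorem Fam.PH (hk : Fam g k) (u : ℝ) : Fam g fun w => LS.PH u (k w) := by
  obtain ⟨K, hK0, hK⟩ := hk.bd
  exact ⟨hk.PH_jm u, K, hK0, fun w y => LS.PH_abs_le (hK w) u y⟩

theorem Fam.UL (h : CSupp μ R) (hk : Fam g k) {s r : ℝ} (hs : 0 < s) (hsr : s ≤ r) :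
    Fam g fun w => E1.UL μ s r (k w) := by
  obtain ⟨K, hK0, hK⟩ := hk.bd
  refine ⟨?_, K, hK0, fun w y => ?_⟩
  · have h0 : Measurable (fun p : (W × (Fin n → ℝ)) × (Fin n → ℝ) =>
        (p.1.1, (1 - s / r) • p.2 + (s / r) • p.1.2)) :=
      Measurable.prodMk (by fun_prop) (by (clear * -; fun_prop))
    have h1 : Measurable (fun p : (W × (Fin n → ℝ)) × (Fin n → ℝ) =>
        LS.PH (s * (r - s) / r) (k p.1.1) ((1 - s / r) • p.2 + (s / r) • p.1.2)
          * exp (lx p.2 (1 / r, (1 / r) • p.1.2))) := by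
      apply ((hk.PH_jm (s * (r - s) / r)).comp h0).mul
      apply Measurable.exp
      unfold lx
      simp only [Pi.smul_apply, smul_eq_mul]
      fun_prop
    have h2 : Measurable (fun y : Fin n → ℝ => Zo μ (1 / r, (1 / r) • y)) :=
      ((contDiff_Zo h 0).continuous.comp (by fun_prop)).measurable
    exact (h1.stronglyMeasurable.integral_prod_right' (ν := μ)).measurable.div
      (h2.comp measurable_snd)
  · obtain ⟨-, h2, h3, h4, h5, -⟩ := (thK n μ R h).1 s r hs hsr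
    have hb := hk.bm w
    rw [abs_le]
    constructor
    · have := h5 (fun _ => -exp (K * g w)) (k w) (BM.const _) hb
        (fun y => (abs_le.1 (hK w y)).1) y
      rwa [h4] at this
    · have := h5 (k w) (fun _ => exp (K * g w)) hb (BM.const _)
        (fun y => (abs_le.1 (hK w y)).2) y
      rwa [h4] at this

theorem Lb.UL (h : CSupp μ R) (hk : Fam g k) (hl : Lb g k) {s r : ℝ} (hs : 0 < s)
    (hsr : s ≤ r) : Lb g fun w => E1.UL μ s r (k w) := by
  obtain ⟨K, hK0, hK⟩ := hl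
  obtain ⟨-, h2, h3, h4, h5, -⟩ := (thK n μ R h).1 s r hs hsr
  refine ⟨K, hK0, fun w y => ?_⟩
  have := h5 (fun _ => exp (-(K * g w))) (k w) (BM.const _) (hk.bm w) (hK w) y
  rwa [h4] at this

end fam

/-! ### smooth families -/

/-- smooth families -/
structure SFam (g : W → ℝ) (F : W → (Fin n → ℝ) → ℝ) : Prop where
  fam : Fam g F
  sb : ∀ w, SB (F w)
  pd : ∀ i, Fam g fun w => Vale.Agent.P245.pd (F w) i

section sfam

variable {F G : W → (Fin n → ℝ) → ℝ}

theorem Fam.congr {k k' : W → (Fin n → ℝ) → ℝ} (h : Fam g k) (e : ∀ w y, k' w y = k w y) :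
    Fam g k' := by
  have : k' = k := by funext w y; exact e w y
  rw [this]; exact h

theorem SFam.of_sb (hg : Out γ g) {G : (Fin n → ℝ) → ℝ} (hG : SB G) : SFam g fun _ => G :=
  ⟨Fam.of_bm hg (SB.bm hG), fun _ => hG, fun i => Fam.of_bm hg (SB.bm (hG.pd i))⟩

theorem SFam.mul (hg : Out γ g) (hF : SFam g F) (hG : SFam g G) :
    SFam g fun w y => F w y * G w y := by
  refine ⟨hF.fam.mul hG.fam, fun w => (hF.sb w).mul (hG.sb w), fun i => ?_⟩
  refine ((hF.fam.mul (hG.pd i)).add hg ((hF.pd i).mul hG.fam)).congr fun w y => ?_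
  rw [LS.pd_mul (hF.sb w).differentiable (hG.sb w).differentiable]

theorem SFam.div (hg : Out γ g) (hF : SFam g F) (hG : SFam g G) (hGp : ∀ w, Pos (G w))
    (hl : Lb g G) : SFam g fun w y => F w y / G w y := by
  refine ⟨hF.fam.div hG.fam hl, fun w => (hGp w).div (hF.sb w), fun i => ?_⟩
  refine (((hF.pd i).div hG.fam hl).sub hg
    ((hF.fam.div hG.fam hl).mul ((hG.pd i).div hG.fam hl))).congr fun w y => ?_
  rw [LS.Down.pd_div (hF.sb w).differentiable (hG.sb w).differentiable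
    (fun y => ((hGp w).pos y).ne')]

variable {μ : Measure (Fin n → ℝ)} [IsProbabilityMeasure μ] {R : ℝ}

theorem SFam.UL (hg : Out γ g) (h : CSupp μ R) (hF : SFam g F) {s r : ℝ} (hs : 0 < s)
    (hsr : s ≤ r) : SFam g fun w => E1.UL μ s r (F w) := by
  have hr : 0 < r := hs.trans_le hsr
  have hX : ∀ (t : ℝ) (i : Fin n), 0 < t → SB (XB μ t i) := fun t i ht =>
    (thR' n μ R h).1 t i ht
  refine ⟨hF.fam.UL h hs hsr, fun w => ((thR' n μ R h).2.2 s r hs hsr).1 _ (hF.sb w),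
    fun i => ?_⟩
  have h1 : Fam g fun w => E1.UL μ s r fun y' => F w y' * XB μ s i y' :=
    (hF.fam.mul (Fam.of_bm hg (SB.bm (hX s i hs)))).UL h hs hsr
  have h2 : Fam g fun w y => E1.UL μ s r (F w) y * XB μ r i y :=
    (hF.fam.UL h hs hsr).mul (Fam.of_bm hg (SB.bm (hX r i hr)))
  have h3 : Fam g fun w => E1.UL μ s r (Vale.Agent.P245.pd (F w) i) := (hF.pd i).UL h hs hsr
  refine (((h1.sub hg h2).add hg (h3.const_mul hg s)).const_mul hg (1 / r)).congr fun w y => ?_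
  rw [E1.pd_UL' (thUL n) h hs (hF.sb w) (show r ∈ Ici s from hsr) i]
  rfl

theorem SFam.of_sch {l : W → (Fin n → ℝ) → ℝ} (hl : H468.SCh γ g l) : SFam g l := by
  obtain ⟨K, hK0, hK⟩ := hl.pdb
  exact ⟨Fam.of_ch hl.ch, fun w => (hl.pos w).sb, fun i => ⟨hl.pdm i, K, hK0, fun w y => hK w y i⟩⟩

theorem Lb.of_ch {l : W → (Fin n → ℝ) → ℝ} (hl : H468.Ch γ g l) : Lb g l := by
  obtain ⟨K, hK0, hK⟩ := hl.bd
  exact ⟨K, hK0, fun w y => (hK w y).1⟩

theorem Lb.of_pos (hg : Out γ g) {N : (Fin n → ℝ) → ℝ} (hN : Pos N) : Lb g fun _ : W => N := by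
  obtain ⟨ε, hε, h⟩ := hN.lb
  refine ⟨|Real.log ε|, abs_nonneg _, fun w y => le_trans ?_ (h y)⟩
  rw [← exp_log hε]
  apply exp_le_exp.2
  have h1 := neg_abs_le (Real.log ε)
  have h2 : |Real.log ε| ≤ |Real.log ε| * g w :=
    le_mul_of_one_le_right (abs_nonneg _) (hg.one_le w)
  rw [Real.log_exp] 
  linarith

theorem Lb.mul (hF : Lb g F) (hG : Lb g G) : Lb g fun w y => F w y * G w y := by
  obtain ⟨K, hK0, hK⟩ := hF
  obtain ⟨L, hL0, hL⟩ := hG
  refine ⟨K + L, by positivity, fun w y => ?_⟩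
  have e : exp (-((K + L) * g w)) = exp (-(K * g w)) * exp (-(L * g w)) := by
    rw [← exp_add]; congr 1; ring
  rw [e]
  exact mul_le_mul (hK w y) (hL w y) (exp_pos _).le ((exp_pos _).le.trans (hK w y))

/-- smooth families of densities -/
structure DFam (g : W → ℝ) (M : W → (Fin n → ℝ) → ℝ) : Prop where
  sf : SFam g M
  lb : Lb g M

theorem DFam.pos {M : W → (Fin n → ℝ) → ℝ} (hM : DFam g M) (w : W) : Pos (M w) := by
  obtain ⟨K, hK0, hK⟩ := hM.lb
  exact ⟨hM.sf.sb w, exp (-(K * g w)), exp_pos _, hK w⟩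

theorem DFam.UL (hg : Out γ g) (h : CSupp μ R) {M : W → (Fin n → ℝ) → ℝ} (hM : DFam g M)
    {s r : ℝ} (hs : 0 < s) (hsr : s ≤ r) : DFam g fun w => E1.UL μ s r (M w) :=
  ⟨hM.sf.UL hg h hs hsr, hM.lb.UL h hM.sf.fam hs hsr⟩

theorem DFam.mul (hg : Out γ g) {M M' : W → (Fin n → ℝ) → ℝ} (hM : DFam g M) (hM' : DFam g M') :
    DFam g fun w y => M w y * M' w y :=
  ⟨hM.sf.mul hg hM'.sf, hM.lb.mul hM'.lb⟩

theorem DFam.of_pos (hg : Out γ g) {N : (Fin n → ℝ) → ℝ} (hN : Pos N) : DFam g fun _ : W => N :=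
  ⟨SFam.of_sb hg hN.sb, Lb.of_pos hg hN⟩

theorem DFam.of_sch {l : W → (Fin n → ℝ) → ℝ} (hl : H468.SCh γ g l) : DFam g l :=
  ⟨SFam.of_sch hl, Lb.of_ch hl.ch⟩

/-- integrability of the functionals along a family -/
theorem DFam.HE_int (hg : Out γ g) {M : W → (Fin n → ℝ) → ℝ} (hM : DFam g M) (r : ℝ) :
    Integrable (fun w => HE μ r (M w)) γ :=
  (hM.sf.fam.mul (hM.sf.fam.log hM.lb)).EY_int hg r

theorem DFam.FI_int (hg : Out γ g) {M : W → (Fin n → ℝ) → ℝ} (hM : DFam g M) (r : ℝ) :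
    Integrable (fun w => FI μ r (M w)) γ := by
  have h1 : Fam g fun w y => ∑ i, Vale.Agent.P245.pd (M w) i y ^ 2 := by
    simp only [sq]
    exact Fam.sum hg Finset.univ fun i _ => (hM.sf.pd i).mul (hM.sf.pd i)
  exact (h1.div hM.sf.fam hM.lb).EY_int hg r

theorem DFam.IP_int (hg : Out γ g) {M : W → (Fin n → ℝ) → ℝ} (hM : DFam g M)
    {φ ψ : Fin n → W → (Fin n → ℝ) → ℝ} (hφ : ∀ i, Fam g (φ i)) (hψ : ∀ i, Fam g (ψ i)) (r : ℝ) :
    Integrable (fun w => IP μ r (M w) (fun i => φ i w) (fun i => ψ i w)) γ :=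
  (hM.sf.fam.mul (Fam.sum hg Finset.univ fun i _ => (hφ i).mul (hψ i))).EY_int hg r

theorem DFam.mm_fam (hg : Out γ g) (h : CSupp μ R) {M : W → (Fin n → ℝ) → ℝ} (hM : DFam g M)
    {s r : ℝ} (hs : 0 < s) (hsr : s ≤ r) (i : Fin n) : Fam g fun w => mm μ s r (M w) i :=
  (((hM.sf.pd i).UL h hs hsr).div (hM.UL hg h hs hsr).sf.fam (hM.UL hg h hs hsr).lb).sub hg
    (((hM.UL hg h hs hsr).sf.pd i).div (hM.UL hg h hs hsr).sf.fam (hM.UL hg h hs hsr).lb)

end sfam

/-! ### scaling -/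

section scal

variable {μ : Measure (Fin n → ℝ)} [IsProbabilityMeasure μ]

theorem pd_cmul {M : (Fin n → ℝ) → ℝ} (hM : SB M) (c : ℝ) (i : Fin n) (y : Fin n → ℝ) :
    pd (fun y => c * M y) i y = c * pd M i y := by
  have h : HasFDerivAt (fun y => c * M y) (c • fderiv ℝ M y) y :=
    ((hM.differentiable y).hasFDerivAt).const_mul c
  unfold pd
  rw [h.fderiv]
  rfl

omit [IsProbabilityMeasure μ] in
theorem FI_cmul {M : (Fin n → ℝ) → ℝ} (hM : SB M) {c : ℝ} (hc : c ≠ 0) (r : ℝ) :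
    FI μ r (fun y => c * M y) = c * FI μ r M := by
  unfold FI
  rw [← LS.EY_const_mul]
  congr 1
  funext y
  simp only [pd_cmul hM, mul_pow]
  rw [← Finset.mul_sum]
  rw [mul_div_mul_comm, pow_two, mul_div_assoc, div_self hc, mul_one]

theorem HE_cmul {M : (Fin n → ℝ) → ℝ} (hM : Pos M) {c : ℝ} (hc : 0 < c) (r : ℝ) :
    HE μ r (fun y => c * M y) = c * HE μ r M + c * Real.log c * EY μ r M := by
  unfold HE
  rw [← LS.EY_const_mul, ← LS.EY_const_mul, ← LS.EY_add μ r ((hM.sb.mul hM.log).const_mul c)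
    (hM.sb.const_mul (c * Real.log c))]
  congr 1
  funext y
  rw [Real.log_mul hc.ne' (hM.pos y).ne']
  ring

end scal

/-! ### the channel form -/

section main

variable {μ : Measure (Fin n → ℝ)} [IsProbabilityMeasure μ] {R r s : ℝ} {N : (Fin n → ℝ) → ℝ}
  {l : W → (Fin n → ℝ) → ℝ}

theorem Out.gnn (hg : Out γ g) (w : W) : 0 ≤ g w := (hg.pos w).le

theorem fi_ch (hN : Pos N) (hl : H468.SCh γ g l) (w : W) :
    FI μ r (fun y => N y * l w y) = H468.ms μ r N l w * FI μ r (H468.pst μ r N l w) := by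
  have hp := H468.ms_pos (μ := μ) (r := r) hN hl.ch w
  unfold H468.pst
  rw [FI_cmul (hN.mul (hl.pos w)).sb (inv_pos.2 hp).ne' r, mul_inv_cancel_left₀ hp.ne']

theorem he_ch (hN : Pos N) (hl : H468.SCh γ g l) (w : W) :
    HE μ r (fun y => N y * l w y) = H468.ms μ r N l w * HE μ r (H468.pst μ r N l w)
      + H468.ms μ r N l w * Real.log (H468.ms μ r N l w) := by
  have hp := H468.ms_pos (μ := μ) (r := r) hN hl.ch w
  unfold H468.pst
  rw [HE_cmul (hN.mul (hl.pos w)) (inv_pos.2 hp) r, mul_add, mul_inv_cancel_left₀ hp.ne',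
    Real.log_inv]
  have e : EY μ r (fun y => N y * l w y) = H468.ms μ r N l w := rfl
  rw [e]
  field_simp
  ring

variable [IsProbabilityMeasure γ]

/-- the smooth channel transported by `UL` -/
theorem SCh.tch (hg : Out γ g) (h : CSupp μ R) (hN : Pos N) (hl : H468.SCh γ g l)
    (hs : 0 < s) (hsr : s ≤ r) : H468.SCh γ g (H468.tch (UL μ s r) N l) := by
  have hM : DFam g fun w y => N y * l w y := (DFam.of_pos hg hN).mul hg (DFam.of_sch hl)
  have hU := hM.UL hg h hs hsr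
  have hUN : Pos (UL μ s r N) := (((thR' n μ R h).2.2 s r hs hsr).2 N hN).1
  have hS : SFam g (H468.tch (UL μ s r) N l) :=
    hU.sf.div hg (SFam.of_sb hg hUN.sb) (fun _ => hUN) (Lb.of_pos hg hUN)
  have hc : H468.Ch γ g (H468.tch (UL μ s r) N l) :=
    H468.Ch.tch (H468.MO_UL hg h hs hsr) (SB.bm hN.sb) hN.lb hl.ch
  refine ⟨hc, fun w => ⟨hS.sb w, ?_⟩, fun i => (hS.pd i).meas, ?_⟩
  · obtain ⟨K, _, hK⟩ := hc.bd
    exact ⟨exp (-(K * g w)), exp_pos _, fun y => (hK w y).1⟩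
  · choose K hK0 hK using fun i => (hS.pd i).bd
    refine ⟨∑ i, K i, Finset.sum_nonneg fun i _ => hK0 i, fun w y i => (hK i w y).trans ?_⟩
    exact exp_mono_g hg (Finset.single_le_sum (f := K) (fun j _ => hK0 j) (Finset.mem_univ i)) w

theorem tch_prod (hg : Out γ g) (h : CSupp μ R) (hN : Pos N) (hs : 0 < s) (hsr : s ≤ r) (w : W) :
    (fun y => UL μ s r N y * H468.tch (UL μ s r) N l w y) = UL μ s r fun y => N y * l w y := by
  funext y
  exact H468.tch_mul (H468.MO_UL (γ := γ) hg h hs hsr) (SB.bm hN.sb) hN.lb w y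

theorem tch_ms (hg : Out γ g) (h : CSupp μ R) (hN : Pos N) (hl : H468.SCh γ g l) (hs : 0 < s)
    (hsr : s ≤ r) (w : W) :
    H468.ms μ r (UL μ s r N) (H468.tch (UL μ s r) N l) w = H468.ms μ s N l w := by
  unfold H468.ms
  have e : (fun y => UL μ s r N y * H468.tch (UL μ s r) N l w y)
      = UL μ s r fun y => N y * l w y := tch_prod hg h hN hs hsr w
  rw [e]
  have h1 := EY_UL h ((SB.bm hN.sb).mul (hl.ch.bm w)) (BM.const (n := n) 1) hs hsr
  simp only [mul_one] at h1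
  rw [h1]
  have e2 : PH (r - s) (fun _ : Fin n → ℝ => (1 : ℝ)) = fun _ => 1 := LS.PH_const _ _
  rw [e2]
  simp only [mul_one]

/-- the averaged Fisher information of the posteriors, unnormalised -/
theorem fi_avg (hg : Out γ g) (hN : Pos N) (hl : H468.SCh γ g l) :
    Integrable (fun w => FI μ r (fun y => N y * l w y)) γ ∧
      ∫ w, FI μ r (fun y => N y * l w y) ∂γ = FI μ r N + H468.JF γ μ r N l := by
  simp_rw [fi_ch hN hl]
  exact H468.avg_FI hg hN hl

/-- the averaged loss of entropy along `UL` -/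
theorem he_avg (hg : Out γ g) (h : CSupp μ R) (hN : Pos N) (hl : H468.SCh γ g l) (hs : 0 < s)
    (hsr : s ≤ r) :
    Integrable (fun w => HE μ s (fun y => N y * l w y)
      - HE μ r (UL μ s r fun y => N y * l w y)) γ ∧
    ∫ w, (HE μ s (fun y => N y * l w y) - HE μ r (UL μ s r fun y => N y * l w y)) ∂γ
      = (HE μ s N + H468.Inf γ μ s N l)
        - (HE μ r (UL μ s r N) + H468.Inf γ μ r (UL μ s r N) (H468.tch (UL μ s r) N l)) := by
  have hUN : Pos (UL μ s r N) := (((thR' n μ R h).2.2 s r hs hsr).2 N hN).1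
  have hl' := SCh.tch hg h hN hl hs hsr
  have a1 := H468.avg_HE (μ := μ) (r := s) hg hN hl
  have a2 := H468.avg_HE (μ := μ) (r := r) hg hUN hl'
  have e : ∀ w, HE μ s (fun y => N y * l w y) - HE μ r (UL μ s r fun y => N y * l w y)
      = H468.ms μ s N l w * HE μ s (H468.pst μ s N l w)
        - H468.ms μ r (UL μ s r N) (H468.tch (UL μ s r) N l) w
          * HE μ r (H468.pst μ r (UL μ s r N) (H468.tch (UL μ s r) N l) w) := by
    intro w
    rw [← tch_prod hg h hN hs hsr w, he_ch hN hl, he_ch hUN hl', tch_ms hg h hN hl hs hsr w]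
    ring
  simp_rw [e]
  refine ⟨a1.1.sub a2.1, ?_⟩
  rw [integral_sub a1.1 a2.1, a1.2, a2.2]

end main

section lc

variable {ρ : (Fin n → ℝ) → ℝ} [IsProbabilityMeasure (mu ρ)] {R r s : ℝ}
  {N : (Fin n → ℝ) → ℝ} {l : W → (Fin n → ℝ) → ℝ} [IsProbabilityMeasure γ]

/-- **K4, lower bound of the loss of entropy**: for a smooth channel `l` at level `s`,
`M_w = N * l w`, `l' = tch (UL s r) N l` the transported channel -/
theorem ker4 (hρ : LCd ρ) (h : CSupp (mu ρ) R) (hg : Out γ g) (hN : Pos N)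
    (hl : H468.SCh γ g l) (hs : 0 < s) (hsr : s ≤ r) :
    Integrable (fun w => IP (mu ρ) r (UL (mu ρ) s r fun y => N y * l w y)
      (mm (mu ρ) s r fun y => N y * l w y) (mm (mu ρ) s r fun y => N y * l w y)) γ ∧
    (r - s) / 2 * (FI (mu ρ) r (UL (mu ρ) s r N)
        + H468.JF γ (mu ρ) r (UL (mu ρ) s r N) (H468.tch (UL (mu ρ) s r) N l))
      + s / 2 * ∫ w, IP (mu ρ) r (UL (mu ρ) s r fun y => N y * l w y)
          (mm (mu ρ) s r fun y => N y * l w y) (mm (mu ρ) s r fun y => N y * l w y) ∂γ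
      ≤ (HE (mu ρ) s N + H468.Inf γ (mu ρ) s N l)
        - (HE (mu ρ) r (UL (mu ρ) s r N)
          + H468.Inf γ (mu ρ) r (UL (mu ρ) s r N) (H468.tch (UL (mu ρ) s r) N l)) := by
  have hUN : Pos (UL (mu ρ) s r N) := (((thR' n (mu ρ) R h).2.2 s r hs hsr).2 N hN).1
  have hl' := SCh.tch hg h hN hl hs hsr
  have hM : DFam g fun w y => N y * l w y := (DFam.of_pos hg hN).mul hg (DFam.of_sch hl)
  have i1 : Integrable (fun w => IP (mu ρ) r (UL (mu ρ) s r fun y => N y * l w y)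
      (mm (mu ρ) s r fun y => N y * l w y) (mm (mu ρ) s r fun y => N y * l w y)) γ :=
    (hM.UL hg h hs hsr).IP_int hg (fun i => hM.mm_fam hg h hs hsr i)
      (fun i => hM.mm_fam hg h hs hsr i) r
  have i2 := fi_avg (μ := mu ρ) (r := r) hg hUN hl'
  have i3 := he_avg hg h hN hl hs hsr
  refine ⟨i1, ?_⟩
  simp_rw [tch_prod hg h hN hs hsr] at i2
  rw [← i3.2, ← i2.2, ← integral_const_mul, ← integral_const_mul,
    ← integral_add (i2.1.const_mul _) (i1.const_mul _)]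
  refine integral_mono ((i2.1.const_mul _).add (i1.const_mul _)) i3.1 fun w => ?_
  exact ker_avg hρ h (hN.mul (hl.pos w)) hs hsr

/-- **K4, upper bound of the loss of entropy** -/
theorem ker4_up (hρ : LCd ρ) (h : CSupp (mu ρ) R) (hg : Out γ g) (hN : Pos N)
    (hl : H468.SCh γ g l) (hs : 0 < s) (hsr : s ≤ r) :
    FI (mu ρ) r (UL (mu ρ) s r N)
        + H468.JF γ (mu ρ) r (UL (mu ρ) s r N) (H468.tch (UL (mu ρ) s r) N l)
      ≤ FI (mu ρ) s N + H468.JF γ (mu ρ) s N l ∧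
    (HE (mu ρ) s N + H468.Inf γ (mu ρ) s N l)
        - (HE (mu ρ) r (UL (mu ρ) s r N)
          + H468.Inf γ (mu ρ) r (UL (mu ρ) s r N) (H468.tch (UL (mu ρ) s r) N l))
      ≤ (r - s) / 2 * (FI (mu ρ) s N + H468.JF γ (mu ρ) s N l) := by
  have hUN : Pos (UL (mu ρ) s r N) := (((thR' n (mu ρ) R h).2.2 s r hs hsr).2 N hN).1
  have hl' := SCh.tch hg h hN hl hs hsr
  have i1 := fi_avg (μ := mu ρ) (r := s) hg hN hl
  have i2 := fi_avg (μ := mu ρ) (r := r) hg hUN hl'
  have i3 := he_avg hg h hN hl hs hsr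
  simp_rw [tch_prod hg h hN hs hsr] at i2
  constructor
  · rw [← i2.2, ← i1.2]
    exact integral_mono i2.1 i1.1 fun w => (ker_up hρ h (hN.mul (hl.pos w)) hs hsr).1
  · rw [← i3.2, ← i1.2, ← integral_const_mul]
    exact integral_mono i3.1 (i1.1.const_mul _) fun w =>
      (ker_up hρ h (hN.mul (hl.pos w)) hs hsr).2

/-- the mismatch of the posteriors -/
theorem ker4_mm (hρ : LCd ρ) (h : CSupp (mu ρ) R) (hg : Out γ g) (hN : Pos N)
    (hl : H468.SCh γ g l) (hs : 0 < s) (hsr : s ≤ r) :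
    s * ∫ w, IP (mu ρ) r (UL (mu ρ) s r fun y => N y * l w y)
          (mm (mu ρ) s r fun y => N y * l w y) (mm (mu ρ) s r fun y => N y * l w y) ∂γ
      ≤ (r - s) * ((FI (mu ρ) s N + H468.JF γ (mu ρ) s N l)
        - (FI (mu ρ) r (UL (mu ρ) s r N)
          + H468.JF γ (mu ρ) r (UL (mu ρ) s r N) (H468.tch (UL (mu ρ) s r) N l))) := by
  have h1 := (ker4 hρ h hg hN hl hs hsr).2
  have h2 := (ker4_up hρ h hg hN hl hs hsr).2
  linarith

/-- **lower half of Lemma U**: the log-Sobolev inequality at level `r`, used at the posteriors of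
the transported channel -/
theorem ker4_lsi (hρ : LCd ρ) (h : CSupp (mu ρ) R) (hg : Out γ g) (hN : Pos N)
    (h1 : EY (mu ρ) s N = 1) (hl : H468.SCh γ g l) (hs : 0 < s) (hsr : s ≤ r) {κ D : ℝ}
    (hD : DBL (mu ρ) r κ D) :
    HE (mu ρ) s N + H468.Inf γ (mu ρ) s N l
        - (r - s) / 2 * (FI (mu ρ) s N + H468.JF γ (mu ρ) s N l)
      ≤ κ * (FI (mu ρ) r (UL (mu ρ) s r N)
        + H468.JF γ (mu ρ) r (UL (mu ρ) s r N) (H468.tch (UL (mu ρ) s r) N l)) + D := by
  have hUN : Pos (UL (mu ρ) s r N) := (((thR' n (mu ρ) R h).2.2 s r hs hsr).2 N hN).1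
  have hl' := SCh.tch hg h hN hl hs hsr
  have e1 : EY (mu ρ) r (UL (mu ρ) s r N) = 1 := by
    have h2 := EY_UL h (SB.bm hN.sb) (BM.const (n := n) 1) hs hsr
    simp only [mul_one] at h2
    have e2 : PH (r - s) (fun _ : Fin n → ℝ => (1 : ℝ)) = fun _ => 1 := LS.PH_const _ _
    rw [e2] at h2
    simp only [mul_one] at h2
    exact h2.trans h1
  have h2 := H468.ch_lsi hg hUN e1 hl' hD
  have h3 := (ker4_up hρ h hg hN hl hs hsr).2
  linarith

/-- lower half of Lemma U for the reveal channel `W = √t φ(Y) + G`, `φ` with values in `ℝ^m` -/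
theorem ker4_RL {m : ℕ} (hρ : LCd ρ) (h : CSupp (mu ρ) R) (hN : Pos N)
    (h1 : EY (mu ρ) s N = 1) {φ : Fin m → (Fin n → ℝ) → ℝ} (hφ : ∀ i, SB (φ i)) {t : ℝ}
    (ht : 0 ≤ t) (hs : 0 < s) (hsr : s ≤ r) {κ D : ℝ} (hD : DBL (mu ρ) r κ D) :
    HE (mu ρ) s N + H468.Inf (gsn m) (mu ρ) s N (H468.RL t φ)
        - (r - s) / 2 * (FI (mu ρ) s N + t * H468.DE (mu ρ) s N φ)
      ≤ κ * (FI (mu ρ) r (UL (mu ρ) s r N)
        + H468.JF (gsn m) (mu ρ) r (UL (mu ρ) s r N)
            (H468.tch (UL (mu ρ) s r) N (H468.RL t φ))) + D := by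
  have h2 := ker4_lsi hρ h (H468.out_gw m) hN h1 (H468.sch_RL (n := n) hφ ht) hs hsr hD
  rwa [H468.JF_RL hN hφ ht] at h2

/-- the information of the reveal channel is large when its output does not predict `φ` -/
theorem ker4_RL_low {m : ℕ} (hρ : LCd ρ) (h : CSupp (mu ρ) R) (hN : Pos N)
    (h1 : EY (mu ρ) s N = 1) {φ : Fin m → (Fin n → ℝ) → ℝ} (hφ : ∀ i, SB (φ i)) {t a X : ℝ}
    (ht : 0 ≤ t) (hs : 0 < s) (hsr : s ≤ r) {κ D : ℝ} (hD : DBL (mu ρ) r κ D)
    (hH : κ * FI (mu ρ) s N - HE (mu ρ) s N ≤ a)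
    (hX : H468.Co (gsn m) (mu ρ) s N φ (H468.RL t φ) ≤ X) (hκ : 0 ≤ κ) :
    t / 2 * (H468.IP (mu ρ) s N φ φ - X) - a - D
        - (r - s) / 2 * (FI (mu ρ) s N + t * H468.DE (mu ρ) s N φ)
      ≤ κ * (H468.JF (gsn m) (mu ρ) r (UL (mu ρ) s r N)
            (H468.tch (UL (mu ρ) s r) N (H468.RL t φ))
          - (FI (mu ρ) s N - FI (mu ρ) r (UL (mu ρ) s r N))) := by
  have h2 := ker4_RL hρ h hN h1 hφ ht hs hsr hD
  have h3 := H468.Inf_RL_ge (μ := mu ρ) (r := s) hN h1 hφ ht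
  have h4 : t / 2 * (H468.IP (mu ρ) s N φ φ - X)
      ≤ t / 2 * (H468.IP (mu ρ) s N φ φ - H468.Co (gsn m) (mu ρ) s N φ (H468.RL t φ)) :=
    mul_le_mul_of_nonneg_left (by linarith only [hX]) (by positivity)
  linarith only [h2, h3, h4, hH]

end lc

end Vale.Agent.P245.H888
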